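import Vale.Agent.P273.H857.Stm
import Vale.Agent.P273.H857.HolInt

/-!
Row GP-HOL: the primitives are holomorphic away from the roots.
-/

open Complex Set Filter Topology MeasureTheory
open scoped ContDiff

namespace Vale.Agent.P273.H787.GP

open Vale.Agent.P273.H857

noncomputable section

/-- the configurations near `(b₀, x₀)` to which one path applies, with uniform lower bounds -/
structure Good (B : Finset (Fin 6)) (g : ℝ → ℝ) (c : ℝ) (U : Set (C6 × ℂ)) : Prop where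
  opn : IsOpen U
  pos : 0 < c
  adm : ∀ p ∈ U, Adm B p.1 p.2 g
  ne : ∀ p ∈ U, ∀ l, p.1 l ≠ p.2
  low : ∀ p ∈ U, ∀ t ≥ (0 : ℝ), ∀ l, c * (1 + t) ≤ ‖gam p.2 g t - p.1 l‖

theorem path_le {g : ℝ → ℝ} (hg : IsPath g) : ∃ K, 0 ≤ K ∧ (∀ t, |deriv g t| ≤ K) ∧
    ∀ t ≥ (0 : ℝ), |g t| ≤ K * t := by
  obtain ⟨K, hK⟩ := hg.bdd
  refine ⟨K, (abs_nonneg _).trans (hK 0), hK, fun t ht => ?_⟩
  have hd : ∀ x ∈ (univ : Set ℝ), DifferentiableAt ℝ g x := fun x _ =>
    (hg.smooth.differentiable (by simp)) x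
  have h := convex_univ.norm_image_sub_le_of_norm_deriv_le (f := g) (C := K) hd
    (fun x _ => by simpa using hK x) (mem_univ (0 : ℝ)) (mem_univ t)
  rw [hg.zero, sub_zero, sub_zero, Real.norm_eq_abs, Real.norm_eq_abs, abs_of_nonneg ht] at h
  exact h

theorem norm_gam_le {g : ℝ → ℝ} {K : ℝ} (hK : ∀ t ≥ (0 : ℝ), |g t| ≤ K * t) (x : ℂ) {t : ℝ}
    (ht : 0 ≤ t) : ‖gam x g t‖ ≤ (‖x‖ + 1 + K) * (1 + t) := by
  have hK0 : 0 ≤ K := by
    have := (abs_nonneg _).trans (hK 1 zero_le_one)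
    linarith
  have h1 : ‖gam x g t‖ ≤ ‖x‖ + (t + |g t|) := by
    refine (norm_add_le _ _).trans (add_le_add le_rfl ((norm_add_le _ _).trans ?_))
    rw [norm_mul, norm_I, mul_one, norm_real, norm_real, Real.norm_eq_abs, Real.norm_eq_abs,
      abs_of_nonneg ht]
  have h2 := hK t ht
  have h3 := norm_nonneg x
  nlinarith [mul_nonneg h3 ht, mul_nonneg hK0 ht]

theorem norm_sq_ge {B : Finset (Fin 6)} {b : C6} {z : ℂ} {r : ℝ} (hr : 0 ≤ r)
    (h : ∀ l, r ≤ ‖z - b l‖) : r ^ 3 ≤ ‖sq B b z‖ := by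
  have h1 : ‖sq B b z‖ * ‖sq B b z‖ = ∏ l, ‖z - b l‖ := by
    rw [← norm_mul, sq_mul_self, norm_prod]
  have h2 : (r ^ 3) * (r ^ 3) ≤ ‖sq B b z‖ * ‖sq B b z‖ := by
    rw [h1]
    have h3 : ∏ _l : Fin 6, r ≤ ∏ l, ‖z - b l‖ :=
      Finset.prod_le_prod (fun _ _ => hr) fun l _ => h l
    rw [Finset.prod_const, Finset.card_univ, Fintype.card_fin] at h3
    calc r ^ 3 * r ^ 3 = r ^ 6 := by ring
      _ ≤ _ := h3
  nlinarith [norm_nonneg (sq B b z), pow_nonneg hr 3]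

theorem bound_Phi {k : ℕ} (hk : k ≤ 1) {B : Finset (Fin 6)} {b : C6} {x : ℂ} {g : ℝ → ℝ}
    {K c A : ℝ} (hK : ∀ t ≥ (0 : ℝ), |g t| ≤ K * t) (hc : 0 < c) (hA : ‖x‖ + 1 + K ≤ A) {t : ℝ}
    (ht : 0 ≤ t) (h : ∀ l, c * (1 + t) ≤ ‖gam x g t - b l‖) :
    ‖gam x g t ^ k / sq B b (gam x g t)‖ ≤ A / c ^ 3 * (1 + t) ^ (-2 : ℝ) := by
  have hK0 : 0 ≤ K := by
    have := (abs_nonneg _).trans (hK 1 zero_le_one)
    linarith
  have hA1 : 1 ≤ A := by linarith [norm_nonneg x]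
  have ht1 : 0 < 1 + t := by linarith
  have h1 := norm_sq_ge (B := B) (by positivity) h
  have h2 : ‖gam x g t‖ ≤ A * (1 + t) := (norm_gam_le hK x ht).trans
    (mul_le_mul_of_nonneg_right hA ht1.le)
  have h3 : ‖gam x g t‖ ^ k ≤ A * (1 + t) := by
    interval_cases k
    · rw [pow_zero]; nlinarith
    · rw [pow_one]; exact h2
  rw [norm_div, norm_pow, Real.rpow_neg ht1.le]
  have h4 : (1 + t) ^ (2 : ℝ) = (1 + t) ^ 2 := by norm_cast
  rw [h4]
  have h5 : 0 < (c * (1 + t)) ^ 3 := by positivity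
  calc ‖gam x g t‖ ^ k / ‖sq B b (gam x g t)‖ ≤ A * (1 + t) / (c * (1 + t)) ^ 3 := by
        gcongr
    _ = A / c ^ 3 * ((1 + t) ^ 2)⁻¹ := by
        field_simp

theorem norm_vel {g : ℝ → ℝ} {K : ℝ} (hK : ∀ t, |deriv g t| ≤ K) (t : ℝ) :
    ‖(1 : ℂ) + deriv g t * I‖ ≤ 1 + K := by
  refine (norm_add_le _ _).trans ?_
  rw [norm_one, norm_mul, norm_I, mul_one, norm_real]
  exact add_le_add le_rfl (hK t)

theorem integrable_bound (A : ℝ) : Integrable (fun t : ℝ => A * (1 + t) ^ (-2 : ℝ))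
    (volume.restrict (Ioi 0)) := by
  have h : IntegrableOn (fun x : ℝ => (x + 1) ^ (-2 : ℝ)) (Ioi 0) :=
    integrableOn_add_rpow_Ioi_of_lt (by norm_num) (by norm_num)
  have h2 : (fun t : ℝ => A * (1 + t) ^ (-2 : ℝ)) = fun t => A * (t + 1) ^ (-2 : ℝ) := by
    funext t; rw [add_comm]
  rw [h2]
  exact h.const_mul A

theorem cont_gam {g : ℝ → ℝ} (hg : IsPath g) (x : ℂ) : Continuous (gam x g) := by
  have := hg.smooth.continuous
  unfold gam
  fun_prop

theorem hasDerivAt_gam {g : ℝ → ℝ} (hg : IsPath g) (x : ℂ) (t : ℝ) :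
    HasDerivAt (gam x g) (1 + deriv g t * I) t := by
  have h1 : HasDerivAt g (deriv g t) t := ((hg.smooth.differentiable (by simp)) t).hasDerivAt
  have h2 : HasDerivAt (fun t : ℝ => ((t : ℝ) : ℂ)) 1 t := by
    simpa using (hasDerivAt_id t).ofReal_comp
  exact (h2.add (h1.ofReal_comp.mul_const I)).const_add x

theorem gam_mem {B : Finset (Fin 6)} {b : C6} {x : ℂ} {g : ℝ → ℝ} (h : Adm B b x g)
    (hx : ∀ l, b l ≠ x) {t : ℝ} (ht : 0 ≤ t) : gam x g t ∈ Dm B b := fun l =>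
  h.mem ht (Or.inl (hx l))

theorem meas_igd {k : ℕ} {B : Finset (Fin 6)} {b : C6} {x : ℂ} {g : ℝ → ℝ} (h : Adm B b x g)
    (hx : ∀ l, b l ≠ x) : AEStronglyMeasurable (igd k B b x g) (volume.restrict (Ioi 0)) := by
  refine ContinuousOn.aestronglyMeasurable ?_ measurableSet_Ioi
  intro t ht
  have h1 : ContinuousAt (gam x g) t := (cont_gam h.1 x).continuousAt
  have h2 : ContinuousAt (sq B b) (gam x g t) := by
    have h3 := (analyticAt_sq (gam_mem h hx (le_of_lt ht))).continuousAt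
    exact ContinuousAt.comp (f := fun z : ℂ => (b, z)) h3
      (Continuous.prodMk_right b).continuousAt
  have h3 : ContinuousAt (fun t : ℝ => sq B b (gam x g t)) t :=
    ContinuousAt.comp (g := sq B b) (f := gam x g) (x := t) h2 h1
  have h4 : sq B b (gam x g t) ≠ 0 := sq_ne_zero fun l hl => by
    have := Sb_ne_zero (gam_mem h hx (le_of_lt ht) l)
    exact this (sub_eq_zero.2 hl)
  have h5 : Continuous (deriv g) := h.1.smooth.continuous_deriv (by simp)
  have h6 : ContinuousAt (fun t : ℝ => (1 : ℂ) + deriv g t * I) t := by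
    refine Continuous.continuousAt ?_
    fun_prop
  exact (((h1.pow k).div h3 h4).mul h6).continuousWithinAt

theorem diff_igd (k : ℕ) {B : Finset (Fin 6)} {g : ℝ → ℝ} {c : ℝ} {U : Set (C6 × ℂ)}
    (hU : Good B g c U) {t : ℝ} (ht : 0 ≤ t) :
    DifferentiableOn ℂ (fun p : C6 × ℂ => igd k B p.1 p.2 g t) U := by
  intro p hp
  have h1 : gam p.2 g t ∈ Dm B p.1 := gam_mem (hU.adm p hp) (hU.ne p hp) ht
  have h2 : DifferentiableAt ℂ (fun p : C6 × ℂ => gam p.2 g t) p := by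
    unfold gam
    fun_prop
  have h3 : DifferentiableAt ℂ (fun p : C6 × ℂ => sq B p.1 (gam p.2 g t)) p := by
    have h4 := (analyticAt_sq h1).differentiableAt
    exact DifferentiableAt.comp (f := fun p : C6 × ℂ => (p.1, gam p.2 g t)) p h4
      (differentiableAt_fst.prodMk h2)
  have h4 : sq B p.1 (gam p.2 g t) ≠ 0 := sq_ne_zero fun l hl =>
    Sb_ne_zero (h1 l) (sub_eq_zero.2 hl)
  have h5 : DifferentiableAt ℂ
      (fun p : C6 × ℂ => gam p.2 g t ^ k * (sq B p.1 (gam p.2 g t))⁻¹) p :=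
    (h2.fun_pow k).fun_mul (h3.fun_inv h4)
  simp only [← div_eq_mul_inv] at h5
  exact (h5.mul_const _).differentiableWithinAt

theorem bound_igd {k : ℕ} (hk : k ≤ 1) {B : Finset (Fin 6)} {g : ℝ → ℝ} {c : ℝ}
    {U : Set (C6 × ℂ)} (hU : Good B g c U) {K : ℝ} (hK : ∀ t, |deriv g t| ≤ K)
    (hK' : ∀ t ≥ (0 : ℝ), |g t| ≤ K * t) {A : ℝ} {p : C6 × ℂ} (hp : p ∈ U)
    (hA : ‖p.2‖ + 1 + K ≤ A) {t : ℝ} (ht : 0 ≤ t) :
    ‖igd k B p.1 p.2 g t‖ ≤ (A / c ^ 3 * (1 + K)) * (1 + t) ^ (-2 : ℝ) := by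
  have h1 := bound_Phi (B := B) hk hK' hU.pos hA ht (hU.low p hp t ht)
  have h2 := norm_vel hK t
  unfold igd
  rw [norm_mul]
  calc _ ≤ (A / c ^ 3 * (1 + t) ^ (-2 : ℝ)) * (1 + K) :=
        mul_le_mul h1 h2 (norm_nonneg _) ((norm_nonneg _).trans h1)
    _ = _ := by ring

theorem analyticAt_PG {k : ℕ} (hk : k ≤ 1) {B : Finset (Fin 6)} {g : ℝ → ℝ} {c : ℝ}
    {U : Set (C6 × ℂ)} (hU : Good B g c U) (hg : IsPath g) {p : C6 × ℂ} (hp : p ∈ U) :
    AnalyticAt ℂ (fun p : C6 × ℂ => PG k B p.1 p.2 g) p := by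
  obtain ⟨K, hK0, hK, hK'⟩ := path_le hg
  have hd : DifferentiableOn ℂ
      (fun p : C6 × ℂ => ∫ t, igd k B p.1 p.2 g t ∂(volume.restrict (Ioi (0 : ℝ)))) U := by
    refine differentiableOn_integral_hol hU.opn
      (fun p hp => meas_igd (hU.adm p hp) (hU.ne p hp)) ?_ ?_
    · filter_upwards [ae_restrict_mem measurableSet_Ioi] with t ht
      exact diff_igd k hU (le_of_lt ht)
    · intro p hp
      obtain ⟨r, hr, hrU⟩ := Metric.isOpen_iff.1 hU.opn p hp
      refine ⟨r, hr, hrU, fun t => ((‖p.2‖ + r + 1 + K) / c ^ 3 * (1 + K)) * (1 + t) ^ (-2 : ℝ),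
        integrable_bound _, ?_⟩
      filter_upwards [ae_restrict_mem measurableSet_Ioi] with t ht q hq
      refine bound_igd hk hU hK hK' (hrU hq) ?_ (le_of_lt ht)
      rw [Metric.mem_ball, dist_eq_norm] at hq
      have h1 : ‖q.2 - p.2‖ ≤ ‖q - p‖ := norm_snd_le (q - p)
      have h2 : ‖q.2‖ ≤ ‖p.2‖ + ‖q.2 - p.2‖ := by
        have := norm_add_le p.2 (q.2 - p.2)
        rwa [add_sub_cancel] at this
      linarith
  have h1 := Vale.Agent.P268.analyticAt_of_differentiableOn hU.opn hd hp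
  exact h1.neg

/-- the derivative in `x` -/
theorem hasDerivAt_PG {k : ℕ} (hk : k ≤ 1) {B : Finset (Fin 6)} {g : ℝ → ℝ} {c : ℝ}
    {U : Set (C6 × ℂ)} (hU : Good B g c U) (hg : IsPath g) {b : C6} {x : ℂ} (hp : (b, x) ∈ U) :
    HasDerivAt (fun x => PG k B b x g) (x ^ k / sq B b x) x := by
  obtain ⟨K, hK0, hK, hK'⟩ := path_le hg
  set V : Set ℂ := (fun x : ℂ => (b, x)) ⁻¹' U with hV
  have hVo : IsOpen V := hU.opn.preimage (Continuous.prodMk_right b)
  obtain ⟨r, hr, hrV⟩ := Metric.isOpen_iff.1 hVo x hp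
  have hdiff : ∀ t ≥ (0 : ℝ), DifferentiableOn ℂ (fun x => igd k B b x g t) V := fun t ht =>
    (diff_igd k hU ht).comp (f := fun x : ℂ => (b, x))
      ((differentiable_const b).prodMk differentiable_id).differentiableOn fun x hx => hx
  have key := hasFDerivAt_integral_hol (μ := volume.restrict (Ioi (0 : ℝ)))
    (G := fun x t => igd k B b x g t) (U := V) hVo
    (fun y hy => meas_igd (hU.adm (b, y) hy) (hU.ne (b, y) hy))
    (by
      filter_upwards [ae_restrict_mem measurableSet_Ioi] with t ht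
      exact hdiff t (le_of_lt ht)) (p := x) hr hrV
    (g := fun t => ((‖x‖ + r + 1 + K) / c ^ 3 * (1 + K)) * (1 + t) ^ (-2 : ℝ))
    (integrable_bound _)
    (by
      filter_upwards [ae_restrict_mem measurableSet_Ioi] with t ht q hq
      refine bound_igd (p := (b, q)) hk hU hK hK' (hrV hq) ?_ (le_of_lt ht)
      rw [Metric.mem_ball, dist_eq_norm] at hq
      have h2 : ‖q‖ ≤ ‖x‖ + ‖q - x‖ := by
        have := norm_add_le x (q - x)
        rwa [add_sub_cancel] at this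
      show ‖q‖ + 1 + K ≤ _
      linarith)
  -- the integrand of the derivative
  set Φ : ℂ → ℂ := fun z => z ^ k / sq B b z with hΦ
  have hΦd : ∀ z ∈ Dm B b, DifferentiableAt ℂ Φ z := by
    intro z hz
    have h2 : DifferentiableAt ℂ (sq B b) z := by
      have h3 := (analyticAt_sq hz).differentiableAt
      exact DifferentiableAt.comp (f := fun z : ℂ => (b, z)) z h3
        ((differentiableAt_const b).prodMk differentiableAt_id)
    have h4 : sq B b z ≠ 0 := sq_ne_zero fun l hl => Sb_ne_zero (hz l) (sub_eq_zero.2 hl)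
    exact (differentiableAt_pow k).div h2 h4
  have hmem : ∀ t ≥ (0 : ℝ), gam x g t ∈ Dm B b := fun t ht =>
    gam_mem (hU.adm _ hp) (hU.ne _ hp) ht
  have hfd : ∀ t ≥ (0 : ℝ), fderiv ℂ (fun y => igd k B b y g t) x 1 =
      deriv Φ (gam x g t) * (1 + deriv g t * I) := by
    intro t ht
    have h1 : HasDerivAt (fun y : ℂ => gam y g t) 1 x := by
      unfold gam
      exact (hasDerivAt_id x).add_const _
    have h2 : HasDerivAt Φ (deriv Φ (gam x g t)) (gam x g t) := (hΦd _ (hmem t ht)).hasDerivAt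
    have h3 : HasDerivAt (fun y : ℂ => Φ (gam y g t)) (deriv Φ (gam x g t) * 1) x :=
      HasDerivAt.comp (h₂ := Φ) (h := fun y : ℂ => gam y g t) x h2 h1
    have h4 : HasDerivAt (fun y => igd k B b y g t)
        (deriv Φ (gam x g t) * 1 * (1 + deriv g t * I)) x := h3.mul_const _
    rw [fderiv_eq_smul_deriv, h4.deriv, one_smul, mul_one]
  have hint : ∫ t in Ioi (0 : ℝ), deriv Φ (gam x g t) * (1 + deriv g t * I) = 0 - Φ x := by
    have h0 : Φ x = (fun t => Φ (gam x g t)) 0 := by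
      show Φ x = Φ (gam x g 0)
      rw [gam_zero hg.zero]
    rw [h0]
    refine integral_Ioi_of_hasDerivAt_of_tendsto' (f := fun t => Φ (gam x g t)) ?_ ?_ ?_
    · intro t ht
      have h2 : HasDerivAt Φ (deriv Φ (gam x g t)) (gam x g t) :=
        (hΦd _ (hmem t ht)).hasDerivAt
      exact HasDerivAt.comp t h2 (hasDerivAt_gam hg x t)
    · have h1 := (ContinuousLinearMap.apply ℂ ℂ (1 : ℂ)).integrable_comp key.1
      refine h1.congr ?_
      filter_upwards [ae_restrict_mem measurableSet_Ioi] with t ht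
      exact hfd t (le_of_lt ht)
    · rw [tendsto_zero_iff_norm_tendsto_zero]
      have h1 : Tendsto (fun t : ℝ => (‖x‖ + 1 + K) / c ^ 3 * (1 + t) ^ (-2 : ℝ)) atTop
          (𝓝 ((‖x‖ + 1 + K) / c ^ 3 * 0)) :=
        ((tendsto_rpow_neg_atTop (y := 2) two_pos).comp
          (tendsto_atTop_add_const_left atTop (1 : ℝ) tendsto_id)).const_mul _
      rw [mul_zero] at h1
      refine squeeze_zero' (Eventually.of_forall fun t => norm_nonneg _) ?_ h1
      filter_upwards [eventually_ge_atTop (0 : ℝ)] with t ht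
      exact bound_Phi (B := B) hk hK' hU.pos le_rfl ht (hU.low _ hp t ht)
  have h5 : (∫ t, fderiv ℂ (fun y => igd k B b y g t) x ∂(volume.restrict (Ioi (0 : ℝ)))) 1 =
      0 - Φ x := by
    rw [← hint, ContinuousLinearMap.integral_apply key.1]
    refine integral_congr_ae ?_
    filter_upwards [ae_restrict_mem measurableSet_Ioi] with t ht
    exact hfd t (le_of_lt ht)
  have h6 := key.2.hasDerivAt.neg
  rw [h5] at h6
  have h7 : -(0 - Φ x) = x ^ k / sq B b x := by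
    rw [zero_sub, neg_neg]
  rw [h7] at h6
  exact h6

theorem eventually_injective {b₀ : C6} (h : Function.Injective b₀) :
    ∀ᶠ b in 𝓝 b₀, Function.Injective b := by
  have h1 : ∀ᶠ b : C6 in 𝓝 b₀, ∀ i j, i ≠ j → b i ≠ b j := by
    rw [Filter.eventually_all]; intro i
    rw [Filter.eventually_all]; intro j
    by_cases hij : i = j
    · exact Eventually.of_forall fun _ h => absurd hij h
    · have h2 : ContinuousAt (fun b : C6 => b i - b j) b₀ := by
        refine Continuous.continuousAt ?_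
        fun_prop
      have h3 := h2.eventually_ne (sub_ne_zero.2 fun h4 => hij (h h4))
      filter_upwards [h3] with b hb _
      exact sub_ne_zero.1 hb
  filter_upwards [h1] with b hb i j hij
  by_contra hne
  exact hb i j hne hij

/-- **Row GP-HOL.** -/
theorem stmHOL (hex : StmEX) (hlow : StmLOW) (hinv : StmINV) : StmHOL := by
  intro k B b₀ x₀ hk hinj hne hOK
  obtain ⟨g, hg⟩ := hex B b₀ x₀ hOK
  obtain ⟨ε, hε, c, hc, hl⟩ := hlow B b₀ x₀ g hg hne
  set U : Set (C6 × ℂ) := Metric.ball b₀ ε ×ˢ Metric.ball x₀ ε with hUdef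
  have hU : Good B g c U := by
    have h1 : ∀ p ∈ U, ‖p.1 - b₀‖ < ε ∧ ‖p.2 - x₀‖ < ε := by
      intro p hp
      rw [← dist_eq_norm, ← dist_eq_norm]
      exact ⟨hp.1, hp.2⟩
    exact ⟨Metric.isOpen_ball.prod Metric.isOpen_ball, hc,
      fun p hp => (hl _ _ (h1 p hp).1 (h1 p hp).2).1,
      fun p hp => (hl _ _ (h1 p hp).1 (h1 p hp).2).2.1,
      fun p hp => (hl _ _ (h1 p hp).1 (h1 p hp).2).2.2⟩
  have h0 : (b₀, x₀) ∈ U := ⟨Metric.mem_ball_self hε, Metric.mem_ball_self hε⟩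
  have hP : ∀ p ∈ U, Function.Injective p.1 → P k B p.1 p.2 = PG k B p.1 p.2 g := by
    intro p hp hpi
    have hx : ∃ g, Adm B p.1 p.2 g := ⟨g, hU.adm p hp⟩
    rw [P, dif_pos hx]
    exact (hinv k B p.1 p.2 hk hpi).2 _ _ hx.choose_spec (hU.adm p hp)
  constructor
  · refine (analyticAt_PG hk hU hg.1 h0).congr ?_
    have h2 : ∀ᶠ p : C6 × ℂ in 𝓝 (b₀, x₀), Function.Injective p.1 :=
      continuousAt_fst.eventually (eventually_injective hinj)
    filter_upwards [hU.opn.mem_nhds h0, h2] with p hp hpi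
    exact (hP p hp hpi).symm
  · refine (hasDerivAt_PG hk hU hg.1 h0).congr_of_eventuallyEq ?_
    filter_upwards [Metric.ball_mem_nhds x₀ hε] with x hx
    exact hP (b₀, x) ⟨Metric.mem_ball_self hε, hx⟩ hinj

end

end Vale.Agent.P273.H787.GP
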