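import Vale.Agent.P273.H787.GPHOL
import Vale.Agent.P273.H595.Nat

/-!
Row GP-HOL on the natural open set: no injectivity of the labels.
-/

open Complex Set Filter Topology MeasureTheory
open scoped ContDiff

namespace Vale.Agent.P273.H787.GP

open Vale.Agent.P273.H857 Vale.Agent.P273.H595

noncomputable section

/-- one path serves a whole neighbourhood, and `P` is the path integral along it there -/
theorem exists_good (hex : StmEX) (hlow : StmLOW) (hinv : StmINVn) {k : ℕ} (hk : k ≤ 1)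
    {B : Finset (Fin 6)} {b₀ : C6} {x₀ : ℂ} (hne : ∀ l, b₀ l ≠ x₀) (hOK : OK B b₀ x₀) :
    ∃ (g : ℝ → ℝ) (c ε : ℝ), IsPath g ∧ 0 < ε ∧
      Good B g c (Metric.ball b₀ ε ×ˢ Metric.ball x₀ ε) ∧
      ∀ p ∈ Metric.ball b₀ ε ×ˢ Metric.ball x₀ ε, P k B p.1 p.2 = PG k B p.1 p.2 g := by
  obtain ⟨g, hg⟩ := hex B b₀ x₀ hOK
  obtain ⟨ε, hε, c, hc, hl⟩ := hlow B b₀ x₀ g hg hne
  have h1 : ∀ p ∈ Metric.ball b₀ ε ×ˢ Metric.ball x₀ ε, ‖p.1 - b₀‖ < ε ∧ ‖p.2 - x₀‖ < ε := by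
    intro p hp
    rw [← dist_eq_norm, ← dist_eq_norm]
    exact ⟨hp.1, hp.2⟩
  have hU : Good B g c (Metric.ball b₀ ε ×ˢ Metric.ball x₀ ε) :=
    ⟨Metric.isOpen_ball.prod Metric.isOpen_ball, hc,
      fun p hp => (hl _ _ (h1 p hp).1 (h1 p hp).2).1,
      fun p hp => (hl _ _ (h1 p hp).1 (h1 p hp).2).2.1,
      fun p hp => (hl _ _ (h1 p hp).1 (h1 p hp).2).2.2⟩
  exact ⟨g, c, ε, hg.1, hε, hU, fun p hp =>
    P_eq hinv hk (SR.of_ne (hU.ne p hp)) (hU.adm p hp)⟩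

/-- **Row GP-HOL on the natural set.** -/
theorem stmHOLn (hex : StmEX) (hlow : StmLOW) (hinv : StmINVn) : StmHOLn := by
  intro k B b₀ x₀ hk hne hOK
  obtain ⟨g, c, ε, hg, hε, hU, hP⟩ := exists_good hex hlow hinv hk hne hOK
  have h0 : (b₀, x₀) ∈ Metric.ball b₀ ε ×ˢ Metric.ball x₀ ε :=
    ⟨Metric.mem_ball_self hε, Metric.mem_ball_self hε⟩
  constructor
  · refine (analyticAt_PG hk hU hg h0).congr ?_
    filter_upwards [hU.opn.mem_nhds h0] with p hp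
    exact (hP p hp).symm
  · refine (hasDerivAt_PG hk hU hg h0).congr_of_eventuallyEq ?_
    filter_upwards [Metric.ball_mem_nhds x₀ hε] with x hx
    exact hP (b₀, x) ⟨Metric.mem_ball_self hε, hx⟩

end

end Vale.Agent.P273.H787.GP
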