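import Vale.Agent.P273.H598.Node2

/-!
# P273, row ASY1, window bound, first half (helper787)

The coefficients of the flat form along the vanishing direction `(1, e)` at one node.
-/

open Set Filter Complex Metric
open scoped Topology Real

namespace Vale.Agent.P273.H787.Win

open Vale.Agent.P273.H598
open Vale.Agent.P273.H908 (Sl)
open Vale.Agent.P273.H857 (lo piX C6)
open Vale.Agent.P273.H828 (pr XD)

noncomputable section

/-- a real linear form along a complex line -/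
theorem A_line (A : ℂ × ℂ →L[ℝ] ℝ) (C : ℂ × ℂ) (z : ℂ) :
    A (z * C.1, z * C.2) = z.re * A C + z.im * A (I * C.1, I * C.2) := by
  have h : ((z * C.1, z * C.2) : ℂ × ℂ) = z.re • C + z.im • ((I * C.1, I * C.2) : ℂ × ℂ) := by
    refine Prod.ext ?_ ?_
    · simp only [Prod.fst_add, Prod.smul_fst, real_smul]
      conv_lhs => rw [← re_add_im z]
      ring
    · simp only [Prod.snd_add, Prod.smul_snd, real_smul]
      conv_lhs => rw [← re_add_im z]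
      ring
  rw [h, map_add, map_smul, map_smul, smul_eq_mul, smul_eq_mul]

theorem line_bound {A : ℂ × ℂ →L[ℝ] ℝ} {c x0 x1 : ℝ} {κ C : ℂ × ℂ} {l : ℂ}
    (h0 : A (κ.1 + l * C.1, κ.2 + l * C.2) + c = x0)
    (h1 : A (κ.1 + (l - π * I) * C.1, κ.2 + (l - π * I) * C.2) + c = x1)
    (hl : l.re < 0) (him : |l.im| ≤ 5) (z : ℂ) :
    |A (z * C.1, z * C.2)| ≤
      ‖z‖ * ((|x0| + |c| + ‖A‖ * ‖κ‖ + 2 * |x1 - x0|) / (-l.re) + |x1 - x0|) := by
  set a := A C with ha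
  set b := A (I * C.1, I * C.2) with hb
  have e0 : A (κ.1 + l * C.1, κ.2 + l * C.2) = A κ + (l.re * a + l.im * b) := by
    rw [ha, hb, ← A_line, ← map_add]
    rfl
  have e1 : A (κ.1 + (l - π * I) * C.1, κ.2 + (l - π * I) * C.2) =
      A κ + (l.re * a + (l.im - π) * b) := by
    have h2 : (l - π * I).re = l.re := by simp
    have h3 : (l - π * I).im = l.im - π := by simp
    rw [← h2, ← h3, ha, hb, ← A_line, ← map_add]
    rfl
  rw [e0] at h0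
  rw [e1] at h1
  have hπ := Real.pi_pos
  have hπ3 := Real.pi_gt_three
  have hb1 : π * b = -(x1 - x0) := by linarith
  have hb2 : |b| ≤ |x1 - x0| / 3 := by
    have h4 : π * |b| = |x1 - x0| := by
      calc π * |b| = |π| * |b| := by rw [abs_of_pos hπ]
        _ = |π * b| := (abs_mul _ _).symm
        _ = |x1 - x0| := by rw [hb1, abs_neg]
    rw [le_div_iff₀ (by norm_num)]
    nlinarith [abs_nonneg b]
  have hM : 0 < -l.re := by linarith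
  have ha1 : -l.re * a = -(x0 - c - A κ - l.im * b) := by linarith
  have ha2 : |a| ≤ (|x0| + |c| + ‖A‖ * ‖κ‖ + 2 * |x1 - x0|) / (-l.re) := by
    rw [le_div_iff₀ hM]
    have h4 : |a| * -l.re = |x0 - c - A κ - l.im * b| := by
      calc |a| * -l.re = |-l.re| * |a| := by rw [abs_of_pos hM, mul_comm]
        _ = |-l.re * a| := (abs_mul _ _).symm
        _ = _ := by rw [ha1, abs_neg]
    rw [h4]
    have h5 : |A κ| ≤ ‖A‖ * ‖κ‖ := by
      have := A.le_opNorm κ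
      rwa [Real.norm_eq_abs] at this
    have h6 : |l.im * b| ≤ 5 * (|x1 - x0| / 3) := by
      rw [abs_mul]
      exact mul_le_mul him hb2 (abs_nonneg _) (by norm_num)
    have h7 := abs_sub (x0 - c - A κ) (l.im * b)
    have h8 := abs_sub (x0 - c) (A κ)
    have h9 := abs_sub x0 c
    have h10 := abs_nonneg (x1 - x0)
    linarith
  have h5 : |x1 - x0| / 3 ≤ |x1 - x0| := by linarith [abs_nonneg (x1 - x0)]
  have h6 := abs_re_le_norm z
  have h7 := abs_im_le_norm z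
  rw [A_line, ← ha, ← hb]
  calc |z.re * a + z.im * b| ≤ |z.re| * |a| + |z.im| * |b| := by
        refine (abs_add_le _ _).trans ?_
        rw [abs_mul, abs_mul]
    _ ≤ ‖z‖ * ((|x0| + |c| + ‖A‖ * ‖κ‖ + 2 * |x1 - x0|) / (-l.re)) + ‖z‖ * |x1 - x0| :=
        add_le_add (mul_le_mul h6 ha2 (abs_nonneg _) (norm_nonneg _))
          (mul_le_mul h7 (hb2.trans h5) (abs_nonneg _) (norm_nonneg _))
    _ = _ := by ring

theorem lg_re (z : ℂ) : (lg z).re = Real.log ‖z‖ := by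
  unfold lg
  rw [add_re, log_re, norm_mul, norm_neg, norm_I, one_mul]
  simp

theorem lg_im (z : ℂ) : |(lg z).im| ≤ 5 := by
  have h1 : (lg z).im = arg (-I * z) + π / 2 := by
    unfold lg
    rw [add_im, log_im]
    simp
  have h2 := neg_pi_lt_arg (-I * z)
  have h3 := arg_le_pi (-I * z)
  have h4 := Real.pi_lt_d2
  rw [h1, abs_le]
  constructor <;> linarith

/-- the estimate, abstractly -/
theorem est {A : ℂ × ℂ →L[ℝ] ℝ} {c x0 x1 : ℝ} {κ C : ℂ × ℂ} {l : ℂ}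
    (h0 : A (κ.1 + l * C.1, κ.2 + l * C.2) + c = x0)
    (h1 : A (κ.1 + (l - π * I) * C.1, κ.2 + (l - π * I) * C.2) + c = x1)
    (hl : l.re < 0) (him : |l.im| ≤ 5) {g e z : ℂ} (hg : g ≠ 0) {Bk G KK δ : ℝ} (hB : 0 ≤ Bk)
    (hK : 0 ≤ KK) (hδ : 0 ≤ δ) (hκ : ‖κ‖ ≤ Bk) (hG : ‖g‖ ≤ G) (hc0 : ‖C.1 - g⁻¹‖ ≤ KK * δ)
    (hc1 : ‖C.2 - e * g⁻¹‖ ≤ KK * δ) :
    |A (z, e * z)| ≤ G * (Bk + 2 + KK) * ‖z‖ *
      ((|x0| + |c| + ‖A‖ + |x1 - x0|) / (-l.re) + |x1 - x0| + ‖A‖ * δ) := by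
  have key := fun w : ℂ => line_bound h0 h1 hl him w
  have hL : 0 < -l.re := by linarith
  set w := z * g with hw
  have hwn : ‖w‖ ≤ ‖z‖ * G := by
    rw [hw, norm_mul]
    exact mul_le_mul_of_nonneg_left hG (norm_nonneg _)
  set D : ℂ × ℂ := (w * (g⁻¹ - C.1), w * (e * g⁻¹ - C.2)) with hD
  have hsplit : ((z, e * z) : ℂ × ℂ) = (w * C.1, w * C.2) + D := by
    refine Prod.ext ?_ ?_
    · simp only [hD, Prod.fst_add]
      rw [mul_sub, add_sub_cancel, hw, mul_assoc, mul_inv_cancel₀ hg, mul_one]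
    · simp only [hD, Prod.snd_add]
      rw [mul_sub, add_sub_cancel, hw]
      field_simp
  have hDn : ‖D‖ ≤ ‖w‖ * (KK * δ) := by
    rw [hD, Prod.norm_def]
    refine max_le ?_ ?_
    · simp only [norm_mul]
      rw [norm_sub_rev]
      exact mul_le_mul_of_nonneg_left hc0 (norm_nonneg _)
    · simp only [norm_mul]
      rw [norm_sub_rev]
      exact mul_le_mul_of_nonneg_left hc1 (norm_nonneg _)
  have hAD : |A D| ≤ ‖A‖ * (‖w‖ * (KK * δ)) := by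
    have := A.le_opNorm D
    rw [Real.norm_eq_abs] at this
    exact this.trans (mul_le_mul_of_nonneg_left hDn (norm_nonneg _))
  set S := |x0| + |c| + ‖A‖ + |x1 - x0| with hS
  have hS0 : 0 ≤ S := by positivity
  have h10 : |x0| + |c| + ‖A‖ * ‖κ‖ + 2 * |x1 - x0| ≤ (Bk + 2) * S := by
    have i1 : ‖A‖ * ‖κ‖ ≤ ‖A‖ * Bk := mul_le_mul_of_nonneg_left hκ (norm_nonneg _)
    have i2 := abs_nonneg x0
    have i3 := abs_nonneg c
    have i4 := norm_nonneg A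
    have i5 := abs_nonneg (x1 - x0)
    rw [hS]
    nlinarith [mul_nonneg hB i2, mul_nonneg hB i3, mul_nonneg hB i5]
  have h11 : |A (w * C.1, w * C.2)| ≤ ‖w‖ * ((Bk + 2) * (S / (-l.re) + |x1 - x0|)) := by
    refine (key w).trans (mul_le_mul_of_nonneg_left ?_ (norm_nonneg _))
    rw [mul_add, ← mul_div_assoc]
    refine add_le_add ((div_le_div_iff_of_pos_right hL).2 h10) ?_
    nlinarith [abs_nonneg (x1 - x0)]
  have h12 : 0 ≤ S / (-l.re) + |x1 - x0| := by positivity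
  have h13 : 0 ≤ ‖A‖ * δ := by positivity
  rw [hsplit, map_add]
  calc |A (w * C.1, w * C.2) + A D|
      ≤ ‖w‖ * ((Bk + 2) * (S / (-l.re) + |x1 - x0|)) + ‖A‖ * (‖w‖ * (KK * δ)) :=
        (abs_add_le _ _).trans (add_le_add h11 hAD)
    _ = ‖w‖ * ((Bk + 2) * (S / (-l.re) + |x1 - x0|) + KK * (‖A‖ * δ)) := by ring
    _ ≤ ‖w‖ * ((Bk + 2 + KK) * (S / (-l.re) + |x1 - x0| + ‖A‖ * δ)) := by
        refine mul_le_mul_of_nonneg_left ?_ (norm_nonneg _)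
        nlinarith [mul_nonneg hK h12, mul_nonneg hB h13]
    _ ≤ (‖z‖ * G) * ((Bk + 2 + KK) * (S / (-l.re) + |x1 - x0| + ‖A‖ * δ)) :=
        mul_le_mul_of_nonneg_right hwn (by positivity)
    _ = _ := by ring

variable {i : Fin 5}

theorem c0_at_zero {V : Set C6} {ρ : ℝ} (h : NB i V ρ) {q : C6} (hq : q ∈ V) (k : ℕ) :
    c0 (fun z => HH i k (q, z)) (5 * ρ) 0 = HH i k (q, 0) := by
  have hρ := h.pos
  exact c0_zero (by linarith) (h.dcc k hq)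

theorem lip {V : Set C6} {ρ : ℝ} (h : NB i V ρ) {q₀ : C6} (hq₀ : q₀ ∈ V) (k : ℕ) :
    ∃ K : ℝ, 0 ≤ K ∧ ∀ᶠ p : ℂ × C6 in 𝓝 (0, q₀),
      ‖c0 (fun z => HH i k (p.2, z)) (5 * ρ) (p.1 ^ 2) - HH i k (p.2, 0)‖ ≤ K * ‖p.1‖ ^ 2 := by
  have hρ := h.pos
  set F : ℂ × C6 → ℂ := fun p => c0 (fun z => HH i k (p.2, z)) (5 * ρ) p.1 with hFdef
  have hFd : DifferentiableOn ℂ F (ball 0 ((5 * ρ) ^ 2) ×ˢ V) :=
    differentiableOn_c0 h.op (by linarith) (by linarith : 5 * ρ < 6 * ρ)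
      ((differentiableOn_HH k).mono h.gd)
  have hop : IsOpen (ball (0 : ℂ) ((5 * ρ) ^ 2) ×ˢ V) := isOpen_ball.prod h.op
  have hmem : ((0 : ℂ), q₀) ∈ ball (0 : ℂ) ((5 * ρ) ^ 2) ×ˢ V :=
    ⟨mem_ball_self (by positivity), hq₀⟩
  obtain ⟨K, t, ht, hK⟩ := ((Vale.Agent.P268.analyticAt_of_differentiableOn hop hFd
    hmem).contDiffAt (n := 1)).exists_lipschitzOnWith
  have hd2 : Tendsto (fun p : ℂ × C6 => ((p.1 ^ 2, p.2) : ℂ × C6)) (𝓝 (0, q₀)) (𝓝 (0, q₀)) := by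
    have : ContinuousAt (fun p : ℂ × C6 => ((p.1 ^ 2, p.2) : ℂ × C6)) (0, q₀) := by fun_prop
    have h3 := this.tendsto
    simpa using h3
  have hd0 : Tendsto (fun p : ℂ × C6 => (((0 : ℂ), p.2) : ℂ × C6)) (𝓝 (0, q₀)) (𝓝 (0, q₀)) := by
    have : ContinuousAt (fun p : ℂ × C6 => (((0 : ℂ), p.2) : ℂ × C6)) (0, q₀) := by fun_prop
    exact this.tendsto
  have hV : ∀ᶠ p : ℂ × C6 in 𝓝 (0, q₀), p.2 ∈ V :=
    continuousAt_snd.eventually_mem (h.op.mem_nhds hq₀)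
  refine ⟨K, K.2, ?_⟩
  filter_upwards [hd2.eventually_mem ht, hd0.eventually_mem ht, hV] with p h1 h2 h3
  have h9 := hK.dist_le_mul _ h1 _ h2
  rw [dist_eq_norm, Prod.dist_eq, dist_zero_right, dist_self, norm_pow,
    max_eq_left (by positivity)] at h9
  rw [← c0_at_zero h h3 k]
  exact h9

theorem HH_zero (q : C6) : HH i 0 (q, 0) = (GG i q 0)⁻¹ := by
  unfold HH
  rw [pow_zero, one_div]

theorem HH_one (q : C6) : HH i 1 (q, 0) = q i.castSucc * (GG i q 0)⁻¹ := by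
  unfold HH
  rw [pow_one, add_zero, div_eq_mul_inv]

theorem GG_bound {q₀ : C6} (hq₀ : q₀ ∈ XD i) :
    ∃ G : ℝ, 0 ≤ G ∧ ∀ᶠ p : ℂ × C6 in 𝓝 (0, q₀), ‖GG i p.2 0‖ ≤ G := by
  have hHc : ContinuousAt (fun p : ℂ × C6 => HH i 0 (p.2, 0)) (0, q₀) := by
    have h3 := (differentiableOn_HH (i := i) 0).differentiableAt
      ((isOpen_Gd i).mem_nhds (mem_Gd_of_XD hq₀))
    have h4 : ContinuousAt (fun p : ℂ × C6 => ((p.2, 0) : C6 × ℂ)) (0, q₀) := by fun_prop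
    exact ContinuousAt.comp (f := fun p : ℂ × C6 => ((p.2, 0) : C6 × ℂ)) h3.continuousAt h4
  have hG0 : GG i q₀ 0 ≠ 0 :=
    GG_ne_zero (p := (q₀, 0)) (mem_Gd_of_XD hq₀)
  have hHne : HH i 0 (q₀, 0) ≠ 0 := by
    rw [HH_zero]
    exact inv_ne_zero hG0
  refine ⟨‖(HH i 0 (q₀, 0))⁻¹‖ + 1, by positivity, ?_⟩
  have h5 : ∀ᶠ x in 𝓝 ‖(HH i 0 (q₀, 0))⁻¹‖, x < ‖(HH i 0 (q₀, 0))⁻¹‖ + 1 :=
    gt_mem_nhds (lt_add_one _)
  filter_upwards [(hHc.inv₀ hHne).norm.eventually h5] with p hp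
  have h6 : ‖(HH i 0 (p.2, 0))⁻¹‖ < ‖(HH i 0 (q₀, 0))⁻¹‖ + 1 := hp
  have h7 : (HH i 0 (p.2, 0))⁻¹ = GG i p.2 0 := by rw [HH_zero, inv_inv]
  rw [h7] at h6
  exact h6.le

theorem kap_bound (hP : PotHyp) {V : Set C6} {ρ : ℝ} (h : NB i V ρ) {q₀ : C6} (hq₀ : q₀ ∈ V)
    {k : ℕ} (hk : k ≤ 1) : ∃ B : ℝ, 0 ≤ B ∧ ∀ᶠ p : ℂ × C6 in 𝓝 (0, q₀), ‖kap i k ρ p‖ ≤ B := by
  have hρ := h.pos
  have hmem2 : ((0 : ℂ), q₀) ∈ ball (0 : ℂ) (ρ / 2) ×ˢ V := ⟨mem_ball_self (by positivity), hq₀⟩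
  have h3 := (h.diff_kap hP hk).differentiableAt ((isOpen_ball.prod h.op).mem_nhds hmem2)
  refine ⟨‖kap i k ρ (0, q₀)‖ + 1, by positivity, ?_⟩
  have h5 : ∀ᶠ x in 𝓝 ‖kap i k ρ (0, q₀)‖, x < ‖kap i k ρ (0, q₀)‖ + 1 :=
    gt_mem_nhds (lt_add_one _)
  filter_upwards [h3.continuousAt.norm.eventually h5] with p hp
  exact hp.le

/-- **the bound of the coefficients in the vanishing direction** -/
theorem kap_local (hP : PotHyp) {q₀ : C6} (hq₀ : q₀ ∈ XD i) :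
    ∃ U ∈ 𝓝 q₀, ∃ ρ > 0, ρ < 1 ∧ ∃ K, 0 ≤ K ∧ ∀ q ∈ U, ∀ d : ℂ, -d ∈ Sl → ‖d‖ < ρ →
      ∀ (A : ℂ × ℂ →L[ℝ] ℝ) (c x0 x1 : ℝ),
        A (piX 0 i.castSucc (bb i (d, q)), piX 1 i.castSucc (bb i (d, q))) + c = x0 →
        A (piX 0 i.succ (bb i (d, q)), piX 1 i.succ (bb i (d, q))) + c = x1 →
        ∀ z : ℂ, |A (z, q i.castSucc * z)| ≤ K * ‖z‖ *
          ((|x0| + |c| + ‖A‖ + |x1 - x0|) / (-Real.log ‖d‖) + |x1 - x0| + ‖A‖ * ‖d‖ ^ 2) := by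
  obtain ⟨V, ρ, h, hqV⟩ := exists_NB hq₀
  have hρ := h.pos
  obtain ⟨K0, hK0, e0⟩ := lip h hqV 0
  obtain ⟨K1, hK1, e1⟩ := lip h hqV 1
  obtain ⟨G, hG, e2⟩ := GG_bound hq₀
  obtain ⟨B0, hB0, e3⟩ := kap_bound hP h hqV (k := 0) (by norm_num)
  obtain ⟨B1, hB1, e4⟩ := kap_bound hP h hqV (k := 1) le_rfl
  have hmem2 : ((0 : ℂ), q₀) ∈ ball (0 : ℂ) (ρ / 2) ×ˢ V := ⟨mem_ball_self (by positivity), hqV⟩
  have hev := (e0.and e1).and ((e2.and (e3.and e4)).and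
    ((isOpen_ball.prod h.op).eventually_mem hmem2))
  rw [nhds_prod_eq] at hev
  obtain ⟨pa, ha, pb, hb, hab⟩ := Filter.eventually_prod_iff.1 hev
  obtain ⟨r, hr, hr2⟩ := Metric.eventually_nhds_iff.1 ha
  refine ⟨{q | pb q}, hb, min r (1 / 2), lt_min hr (by norm_num),
    (min_le_right _ _).trans_lt (by norm_num), G * (max B0 B1 + 2 + max K0 K1), by positivity, ?_⟩
  intro q hq d hdS hd A c x0 x1 h0 h1 z
  have hdr : ‖d‖ < r := hd.trans_le (min_le_left _ _)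
  have hd1 : ‖d‖ < 1 := (hd.trans_le (min_le_right _ _)).trans (by norm_num)
  have hdn : 0 < ‖d‖ := norm_pos_iff.2 (by
    intro h9
    rw [h9, neg_zero] at hdS
    exact H908.Sl_ne_zero hdS rfl)
  obtain ⟨⟨f0, f1⟩, ⟨f2, f3, f4⟩, f5, f6⟩ := hab (hr2 (by rwa [dist_zero_right])) hq
  simp only at f0 f1 f2 f3 f4 f5 f6
  rw [mem_ball_zero_iff] at f5
  rw [h.piX_zero hP (k := 0) (by norm_num) f6 f5 hdS, h.piX_zero hP (k := 1) le_rfl f6 f5 hdS]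
    at h0
  rw [h.piX_one hP (k := 0) (by norm_num) f6 f5 hdS, h.piX_one hP (k := 1) le_rfl f6 f5 hdS]
    at h1
  have hre : (lg (-d)).re = Real.log ‖d‖ := by rw [lg_re, norm_neg]
  have hlog := Real.log_neg hdn hd1
  rw [HH_zero] at f0
  rw [HH_one] at f1
  have hGq : GG i q 0 ≠ 0 :=
    GG_ne_zero (p := (q, 0)) (h.mem_gd f6 (by rw [norm_zero]; positivity))
  have key := est (A := A) (c := c) (κ := (kap i 0 ρ (d, q), kap i 1 ρ (d, q)))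
    (C := (c0 (fun z => HH i 0 (q, z)) (5 * ρ) (d ^ 2), c0 (fun z => HH i 1 (q, z)) (5 * ρ) (d ^ 2)))
    (l := lg (-d)) h0 h1 (by rw [hre]; exact hlog) (lg_im _) (g := GG i q 0)
    (e := q i.castSucc) (z := z) hGq (Bk := max B0 B1) (G := G) (KK := max K0 K1)
    (δ := ‖d‖ ^ 2) (hB0.trans (le_max_left _ _)) (hK0.trans (le_max_left _ _)) (by positivity)
    (by
      rw [Prod.norm_def]
      exact max_le_max f3 f4) f2
    (f0.trans (mul_le_mul_of_nonneg_right (le_max_left _ _) (by positivity)))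
    (f1.trans (mul_le_mul_of_nonneg_right (le_max_right _ _) (by positivity)))
  rw [hre] at key
  exact key

end

end Vale.Agent.P273.H787.Win
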